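import Vale.Agent.Helper14.MichaelisMenten

/-!
Permanence conjecture: permanence of mass-action networks built from open species (each with an
outflow `X_i → 0`) and conserved two-state switches (pairs of species whose sum every reaction
conserves), under a dissipative positive weight and a ranking (production) hypothesis, for all
positive rate constants and every positive stoichiometric class. Example: the open reversible
Michaelis-Menten mechanism `0 ⇌ S`, `0 ⇌ P`, `E + S ⇌ ES ⇌ E + P`.
-/

namespace Vale.Agent.Results.P072.ConservedSwitches

open Vale.Agent.Helper14.MassAction Vale.Agent.Helper14.Switches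
  Vale.Agent.Helper14.MichaelisMenten

/-- (1) Let `p` be a partner map on the species of `N`: species with `p i = i` (open species)
have the outflow reaction `X_i → 0`, and for species with `p i ≠ i` every reaction conserves the
sum of species `i` and `p i`. Let `ω` be a positive weight with `ω · (y' - y) ≤ 0` for every
reaction `y → y'` with `y ≠ 0`, and suppose there is a rank `ρ` such that every species `i` is
produced by some reaction `y → y'` (`y i = 0 < y' i`) all of whose reactant species have lower
rank than `i` or are the partner `p i`. Then for all positive rate constants the mass-action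
system is permanent on every positive stoichiometric class.
(2) The open reversible Michaelis-Menten network `mm` is weakly reversible and permanent on
every positive stoichiometric class, for all positive rate constants. -/
theorem result :
    (∀ (d : ℕ) (N : Network d) (ω : Fin d → ℝ) (p : Fin d → Fin d)
      (k : (Fin d → ℕ) × (Fin d → ℕ) → ℝ),
      (∀ r ∈ N.reactions, 0 < k r) → (∀ i, 0 < ω i) →
      (∀ r ∈ N.reactions, r.1 ≠ 0 → ∑ i, ω i * ((r.2 i : ℝ) - (r.1 i : ℝ)) ≤ 0) →
      (∀ i, p i = i → ((Pi.single i 1 : Fin d → ℕ), (0 : Fin d → ℕ)) ∈ N.reactions) →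
      (∀ r ∈ N.reactions, ∀ i, p i ≠ i → r.1 i + r.1 (p i) = r.2 i + r.2 (p i)) →
      (∃ ρ : Fin d → ℕ, ∀ i, ∃ r ∈ N.reactions, r.1 i = 0 ∧ r.2 i ≠ 0 ∧
        ∀ j, r.1 j ≠ 0 → ρ j < ρ i ∨ j = p i) →
      ∀ c : Fin d → ℝ, (∀ i, 0 < c i) → Permanent (N.field k) (N.posClass c)) ∧
    (mm.WeaklyReversible ∧ ∀ k : (Fin 4 → ℕ) × (Fin 4 → ℕ) → ℝ,
      (∀ r ∈ mm.reactions, 0 < k r) → ∀ c : Fin 4 → ℝ, (∀ i, 0 < c i) →
        Permanent (mm.field k) (mm.posClass c)) :=
  ⟨fun _ N ω p k hk hω hdiss hout hcons hrank c hc =>
      permanent_switch N ω hω p hcons hrank hout hdiss k hk c hc,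
    mm_weaklyReversible, fun k hk c hc => mm_permanent k hk c hc⟩

end Vale.Agent.Results.P072.ConservedSwitches
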