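import Vale.Agent.Helper14.Switches

/-!
Permanence conjecture, time-dependent form: uniform permanence, for all rate functions that are
continuous in time with values in `[ε, ε⁻¹]`, of mass-action networks built from open species
(each with an outflow `X_i → 0`) and conserved two-state switches, under a dissipative positive
weight and a ranking (production) hypothesis.
-/

namespace Vale.Agent.Results.P072.ConservedSwitchesTimeDependent

open Vale.Agent.Helper14.MassAction Vale.Agent.Helper14.TimeDependent
  Vale.Agent.Helper14.Switches

/-- Let `p` be a partner map on the species of `N`: species with `p i = i` have the outflow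
reaction `X_i → 0`, and for species with `p i ≠ i` every reaction conserves the sum of species
`i` and `p i`. Let `ω` be a positive weight with `ω · (y' - y) ≤ 0` for every reaction `y → y'`
with `y ≠ 0`, and suppose there is a rank `ρ` such that every species `i` is produced by some
reaction `y → y'` (`y i = 0 < y' i`) all of whose reactant species have lower rank than `i` or
are the partner `p i`. Then for every `ε > 0` the mass-action systems with time-dependent rates
(continuous in time, values in `[ε, ε⁻¹]`) are permanent on every positive stoichiometric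
class, with one compact attracting set for all such rate functions. -/
theorem result : ∀ (d : ℕ) (N : Network d) (ω : Fin d → ℝ) (p : Fin d → Fin d),
    (∀ i, 0 < ω i) →
    (∀ r ∈ N.reactions, r.1 ≠ 0 → ∑ i, ω i * ((r.2 i : ℝ) - (r.1 i : ℝ)) ≤ 0) →
    (∀ i, p i = i → ((Pi.single i 1 : Fin d → ℕ), (0 : Fin d → ℕ)) ∈ N.reactions) →
    (∀ r ∈ N.reactions, ∀ i, p i ≠ i → r.1 i + r.1 (p i) = r.2 i + r.2 (p i)) →
    (∃ ρ : Fin d → ℕ, ∀ i, ∃ r ∈ N.reactions, r.1 i = 0 ∧ r.2 i ≠ 0 ∧
      ∀ j, r.1 j ≠ 0 → ρ j < ρ i ∨ j = p i) →
    ∀ ε : ℝ, 0 < ε → ∀ c : Fin d → ℝ, (∀ i, 0 < c i) → PermanentT N ε (N.posClass c) :=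
  fun _ N ω p hω hdiss hout hcons hrank ε hε c hc =>
    permanentT_switch N ω hω p hcons hrank hout hdiss ε hε c hc

end Vale.Agent.Results.P072.ConservedSwitchesTimeDependent
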