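import Vale.Agent.Helper14.DriverBinding

/-!
Permanence conjecture: the weakly reversible networks `0 ⇌ X`, `aX + Y ⇌ Z` (`a = 0, 1, 2, …`),
with two linkage classes and three species, are permanent on every positive stoichiometric
class for every choice of positive rate constants.
-/

namespace Vale.Agent.Results.P072.PermanenceBindingFamily

open Vale.Agent.Helper14.MassAction Vale.Agent.Helper14.DriverBinding

/-- For every `a : ℕ` and all positive rate constants, the network
`{0 → X, X → 0, aX + Y → Z, Z → aX + Y}` is weakly reversible and its mass-action system is
permanent on every positive stoichiometric class. -/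
theorem result : ∀ (a : ℕ) (k : (Fin 3 → ℕ) × (Fin 3 → ℕ) → ℝ),
    (∀ r ∈ (net a).reactions, 0 < k r) →
    (net a).WeaklyReversible ∧
      ∀ c : Fin 3 → ℝ, (∀ i, 0 < c i) → Permanent ((net a).field k) ((net a).posClass c) :=
  fun a k hk => ⟨net_weaklyReversible a, fun c hc => permanent_net a k hk c hc⟩

end Vale.Agent.Results.P072.PermanenceBindingFamily
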