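import Vale.Agent.Helper14.TimeDependent

/-!
Permanence conjecture, time-dependent form: for every weakly reversible network that contains
the outflow `X_i → 0` of every species and admits a positive weight `ω` which does not increase
along any reaction with nonzero source, the mass-action systems with time-dependent rates
(continuous in time, with values in `[ε, ε⁻¹]`) are permanent on every positive stoichiometric
class, with one compact attracting set for all such rate functions.
-/

namespace Vale.Agent.Results.P072.TimeDependentRates

open Vale.Agent.Helper14.MassAction Vale.Agent.Helper14.TimeDependent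

/-- Let `N` be a weakly reversible network on `d` species containing the reaction `X_i → 0` for
every species `i`, and let `ω` be a positive weight with `ω · (y' - y) ≤ 0` for every reaction
`y → y'` with `y ≠ 0`. Then for every `ε > 0` and every positive stoichiometric class `P`, the
mass-action systems `ẋ = f_{κ(t)}(x)` with rates `κ` continuous in time and valued in
`[ε, ε⁻¹]` are permanent on `P`, uniformly in `κ`. -/
theorem result : ∀ (d : ℕ) (N : Network d) (ω : Fin d → ℝ), N.WeaklyReversible →
    (∀ i, 0 < ω i) →
    (∀ i, ((Pi.single i 1 : Fin d → ℕ), (0 : Fin d → ℕ)) ∈ N.reactions) →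
    (∀ r ∈ N.reactions, r.1 ≠ 0 → ∑ i, ω i * ((r.2 i : ℝ) - (r.1 i : ℝ)) ≤ 0) →
    ∀ ε : ℝ, 0 < ε → ∀ c : Fin d → ℝ, PermanentT N ε (N.posClass c) :=
  fun _ N ω hN hω hout hdiss ε hε c => permanentT_weaklyReversible N hN ω hω hout hdiss ε hε c

end Vale.Agent.Results.P072.TimeDependentRates
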