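import Vale.Agent.Helper14.OutflowNetworks

/-!
Permanence conjecture: every weakly reversible mass-action network that contains the outflow
`X_i → 0` of every species and admits a positive weight `ω` which does not increase along any
reaction with nonzero source is permanent on every positive stoichiometric class, for all
positive rate constants.
-/

namespace Vale.Agent.Results.P072.WeaklyReversibleOutflows

open Vale.Agent.Helper14.MassAction Vale.Agent.Helper14.OutflowNetworks

/-- Let `N` be a weakly reversible network on `d` species containing the reaction `X_i → 0` for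
every species `i`, and let `ω` be a positive weight with `ω · (y' - y) ≤ 0` for every reaction
`y → y'` with `y ≠ 0`. Then for all positive rate constants the mass-action system of `N` is
permanent on every positive stoichiometric class. -/
theorem result : ∀ (d : ℕ) (N : Network d) (k : (Fin d → ℕ) × (Fin d → ℕ) → ℝ)
    (ω : Fin d → ℝ), N.WeaklyReversible → (∀ r ∈ N.reactions, 0 < k r) → (∀ i, 0 < ω i) →
    (∀ i, ((Pi.single i 1 : Fin d → ℕ), (0 : Fin d → ℕ)) ∈ N.reactions) →
    (∀ r ∈ N.reactions, r.1 ≠ 0 → ∑ i, ω i * ((r.2 i : ℝ) - (r.1 i : ℝ)) ≤ 0) →
    ∀ c : Fin d → ℝ, Permanent (N.field k) (N.posClass c) :=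
  fun _ N k ω hN hk hω hout hdiss c => permanent_weaklyReversible N hN k hk ω hω hout hdiss c

end Vale.Agent.Results.P072.WeaklyReversibleOutflows
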