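import Vale.Agent.Helper14.OpenNetworks

/-!
Permanence conjecture: permanence of open dissipative mass-action networks. If a network
contains the inflow `0 → X_i` and the outflow `X_i → 0` of every species and some positive
weight `ω` does not increase along any reaction with nonzero source, then the mass-action system
is permanent on every positive stoichiometric class, for all positive rate constants. In
particular the fully open extension of every weakly reversible network conserving a positive
weight is weakly reversible and permanent.
-/

namespace Vale.Agent.Results.P072.ZOpenDissipativeNetworks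

open Vale.Agent.Helper14.MassAction Vale.Agent.Helper14.OpenNetworks

/-- (1) Every network containing `0 → X_i` and `X_i → 0` for all species `i`, and admitting a
positive weight `ω` with `ω · (y' - y) ≤ 0` for every reaction `y → y'` with `y ≠ 0`, is
permanent on every positive stoichiometric class for all positive rate constants.
(2) If `G` is weakly reversible and conserves a positive weight `ω`, its fully open extension
`openExt G` is weakly reversible and permanent. -/
theorem result :
    (∀ (d : ℕ) (N : Network d) (k : (Fin d → ℕ) × (Fin d → ℕ) → ℝ) (ω : Fin d → ℝ),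
      (∀ r ∈ N.reactions, 0 < k r) → (∀ i, 0 < ω i) →
      (∀ i, ((0 : Fin d → ℕ), (Pi.single i 1 : Fin d → ℕ)) ∈ N.reactions) →
      (∀ i, ((Pi.single i 1 : Fin d → ℕ), (0 : Fin d → ℕ)) ∈ N.reactions) →
      (∀ r ∈ N.reactions, r.1 ≠ 0 → ∑ i, ω i * ((r.2 i : ℝ) - (r.1 i : ℝ)) ≤ 0) →
      ∀ c : Fin d → ℝ, Permanent (N.field k) (N.posClass c)) ∧
    (∀ (d : ℕ) (G : Network d) (ω : Fin d → ℝ), (∀ i, 0 < ω i) →
      (∀ r ∈ G.reactions, ∑ i, ω i * (r.2 i : ℝ) = ∑ i, ω i * (r.1 i : ℝ)) →
      G.WeaklyReversible →
      (openExt G).WeaklyReversible ∧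
        ∀ k : (Fin d → ℕ) × (Fin d → ℕ) → ℝ, (∀ r ∈ (openExt G).reactions, 0 < k r) →
          ∀ c : Fin d → ℝ, Permanent ((openExt G).field k) ((openExt G).posClass c)) :=
  ⟨fun _ N k ω hk hω hin hout hdiss c => permanent_open N k hk ω hω hin hout hdiss c,
    fun _ G ω hω hcons hG => ⟨openExt_weaklyReversible G hG,
      fun k hk c => permanent_openExt G ω hω hcons k hk c⟩⟩

end Vale.Agent.Results.P072.ZOpenDissipativeNetworks
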